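import Vale.Agent.H88.Lip.Maps

/-!
# Bi-Lipschitz bijections of Cantor space induce only the trivial automorphism of the degrees

Main result (`lip_main`): a bijection `Φ` of Cantor space such that `Φ` and its inverse lose at
most `c` values of agreement of initial segments (a bi-Lipschitz bijection for the standard
ultrametric) and such that `Φ` preserves Turing reducibility in both directions maps every
set to a Turing equivalent set.

The proof follows the case of isometries (`iso_main`); every step now loses a bounded number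
of values, and the final recursion over a finite string starts from a long enough finite part
of the image of a computable point.
-/

namespace Vale.Agent.H88

theorem isoG_computable_param {α : Type*} [Primcodable α] {init r : α → List Bool}
    {c₀ c₁ : List Bool → List Bool} (hinit : Computable init) (hr : Computable r)
    (hc₀ : Computable c₀) (hc₁ : Computable c₁) :
    Computable (fun a : α => isoG (init a) c₀ c₁ (r a) (r a).length) := by
  have hh : Computable₂ (fun (a : α) (x : ℕ × List Bool) =>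
      bif (r a).getD x.1 false then c₁ x.2 else c₀ x.2) :=
    Computable.cond
      (((Primrec.list_getD false).to_comp).comp (hr.comp Computable.fst)
        (Computable.fst.comp Computable.snd))
      (hc₁.comp (Computable.snd.comp Computable.snd))
      (hc₀.comp (Computable.snd.comp Computable.snd))
  have h := Computable.nat_rec (Computable.list_length.comp hr) hinit hh
  refine h.of_eq fun a => ?_
  have key : ∀ j, Nat.rec (motive := fun _ => List Bool) (init a)
      (fun y IH => bif (r a).getD y false then c₁ IH else c₀ IH) j =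
        isoG (init a) c₀ c₁ (r a) j := by
    intro j
    induction j with
    | zero => rfl
    | succ j ih =>
      show (bif (r a).getD j false then c₁ _ else c₀ _) = _
      rw [ih]
      rfl
  exact key (r a).length

theorem lip_fold_spec (Ψ : (ℕ → Bool) → (ℕ → Bool)) (lam n₀ : ℕ)
    (c₀ c₁ : List Bool → List Bool)
    (hs₀ : ∀ (Y : ℕ → Bool) (N : ℕ), n₀ ≤ N →
      pre (Ψ (app [false] Y)) (N - lam) = c₀ (pre (Ψ Y) N))
    (hs₁ : ∀ (Y : ℕ → Bool) (N : ℕ), n₀ ≤ N →
      pre (Ψ (app [true] Y)) (N - lam) = c₁ (pre (Ψ Y) N))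
    (r : List Bool) (Y : ℕ → Bool) (N₀ : ℕ) (j : ℕ) : j ≤ r.length → n₀ + j * lam ≤ N₀ →
      isoG (pre (Ψ Y) N₀) c₀ c₁ r j = pre (Ψ (app (r.take j).reverse Y)) (N₀ - j * lam) := by
  induction j with
  | zero =>
    intro _ _
    show pre (Ψ Y) N₀ = _
    rw [List.take_zero, List.reverse_nil, iso_app_nil, Nat.zero_mul, Nat.sub_zero]
  | succ j ih =>
    intro hj hN
    have hj' : j < r.length := hj
    have hmul : (j + 1) * lam = j * lam + lam := Nat.succ_mul j lam
    have hN' : n₀ + j * lam ≤ N₀ := by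
      rw [hmul] at hN
      omega
    have ih' := ih (Nat.le_of_lt hj') hN'
    have htake : (r.take (j + 1)).reverse = r.getD j false :: (r.take j).reverse := by
      rw [List.take_add_one, List.reverse_append, List.getElem?_eq_getElem hj',
        List.getD_eq_getElem _ _ hj']
      rfl
    have e : N₀ - (j + 1) * lam = N₀ - j * lam - lam := by
      rw [hmul]
      omega
    have hn : n₀ ≤ N₀ - j * lam := by
      rw [hmul] at hN
      omega
    rw [htake, iso_app_cons', e]
    show (bif r.getD j false then c₁ (isoG _ c₀ c₁ r j) else c₀ (isoG _ c₀ c₁ r j)) = _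
    rw [ih']
    cases r.getD j false
    · exact (hs₀ _ _ hn).symm
    · exact (hs₁ _ _ hn).symm

theorem lip_fold_test (G : ℕ × List Bool → List Bool) (hG : Computable G) (c : ℕ) :
    Computable (fun p : ℕ × ℕ × List Bool =>
      if p.1 + 1 + c ≤ p.2.2.length then some ((G (p.1, p.2.2)).getD p.1 false) else none) := by
  have hT1 : Primrec (fun x : ℕ × ℕ × Bool =>
      if x.1 + 1 + c ≤ x.2.1 then some x.2.2 else none) :=
    Primrec.ite (Primrec.nat_le.comp
      (Primrec.nat_add.comp (Primrec.succ.comp Primrec.fst) (Primrec.const c))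
      (Primrec.fst.comp Primrec.snd))
      (Primrec.option_some.comp (Primrec.snd.comp Primrec.snd)) (Primrec.const none)
  have hval : Computable (fun p : ℕ × ℕ × List Bool => (G (p.1, p.2.2)).getD p.1 false) :=
    ((Primrec.list_getD false).to_comp).comp
      (hG.comp (Computable.pair Computable.fst (Computable.snd.comp Computable.snd)))
      Computable.fst
  have h := hT1.to_comp.comp (Computable.pair (Computable.fst (α := ℕ) (β := ℕ × List Bool))
    (Computable.pair (Computable.list_length.comp (Computable.snd.comp Computable.snd)) hval))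
  exact h.of_eq fun p => rfl

/-- If `Ψ` loses at most `c` values of agreement, the image of the zero sequence is computable
and prepending a value is conjugated by `Ψ` to computable maps on finite strings that lose at
most `lam` values, then `Ψ Y` is computable from `Y`. -/
theorem lip_fold (Ψ : (ℕ → Bool) → (ℕ → Bool)) (c lam n₀ : ℕ)
    (c₀ c₁ : List Bool → List Bool) (hc₀ : Computable c₀) (hc₁ : Computable c₁)
    (hΨ : ∀ N Y Y', Agree (N + c) Y Y' → Agree N (Ψ Y) (Ψ Y'))
    (hP₀ : Computable (Ψ (fun _ => false)))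
    (hs₀ : ∀ (Y : ℕ → Bool) (N : ℕ), n₀ ≤ N →
      pre (Ψ (app [false] Y)) (N - lam) = c₀ (pre (Ψ Y) N))
    (hs₁ : ∀ (Y : ℕ → Bool) (N : ℕ), n₀ ≤ N →
      pre (Ψ (app [true] Y)) (N - lam) = c₁ (pre (Ψ Y) N))
    (X : ℕ → Bool) : TuringReducible (chi (Ψ X)) (chi X) := by
  obtain ⟨G, hGdef⟩ : ∃ G : ℕ × List Bool → List Bool, G = fun p =>
      isoG (pre (Ψ (fun _ => false)) (p.1 + 1 + n₀ + p.2.length * lam)) c₀ c₁
        p.2.reverse p.2.reverse.length := ⟨_, rfl⟩
  have hG : Computable G := by
    rw [hGdef]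
    have hlen : Computable (fun p : ℕ × List Bool => p.1 + 1 + n₀ + p.2.length * lam) :=
      (Primrec.nat_add.comp (Primrec.nat_add.comp (Primrec.succ.comp Primrec.fst)
        (Primrec.const n₀)) (Primrec.nat_mul.comp (Primrec.list_length.comp Primrec.snd)
        (Primrec.const lam))).to_comp
    exact isoG_computable_param (init := fun p : ℕ × List Bool =>
        pre (Ψ (fun _ => false)) (p.1 + 1 + n₀ + p.2.length * lam))
      (r := fun p : ℕ × List Bool => p.2.reverse)
      ((iso_computable_pre hP₀).comp hlen)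
      (Computable.list_reverse.comp Computable.snd) hc₀ hc₁
  have hGspec : ∀ n K, G (n, pre X K) =
      pre (Ψ (app (pre X K) (fun _ => false))) (n + 1 + n₀) := by
    intro n K
    rw [hGdef]
    have h1 := lip_fold_spec Ψ lam n₀ c₀ c₁ hs₀ hs₁ (pre X K).reverse (fun _ => false)
      (n + 1 + n₀ + K * lam) (pre X K).reverse.length (le_refl _)
      (by rw [List.length_reverse, length_pre]; omega)
    rw [List.take_length, List.reverse_reverse, List.length_reverse, length_pre] at h1
    show isoG (pre (Ψ (fun _ => false)) (n + 1 + n₀ + (pre X K).length * lam)) c₀ c₁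
      (pre X K).reverse (pre X K).reverse.length = _
    rw [List.length_reverse, length_pre, h1]
    congr 1
    omega
  refine turingReducible_of_test
    (t := fun n _ ξ => if n + 1 + c ≤ ξ.length then some ((G (n, ξ)).getD n false) else none)
    (lip_fold_test G hG c) ?_ ?_
  · intro n q K v h
    rw [length_pre] at h
    by_cases hn : n + 1 + c ≤ K
    · rw [if_pos hn, hGspec n K] at h
      have h2 := (Option.some.inj h).symm
      rw [h2, ← ext_pre _ _ n (by rw [length_pre]; omega)]
      apply hΨ (n + 1) _ _ _ n (Nat.lt_succ_self n)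
      intro i hi
      unfold app
      rw [length_pre, if_pos (show i < K by omega)]
      exact (ext_pre X K i (by rw [length_pre]; omega)).symm
    · rw [if_neg hn] at h
      exact absurd h (by simp)
  · intro n
    refine ⟨0, n + 1 + c, ?_⟩
    rw [length_pre, if_pos (le_refl _)]
    rfl

section

variable (Φ : (ℕ → Bool) ≃ (ℕ → Bool)) (c : ℕ)
  (hΦ : ∀ n X Y, Agree (n + c) X Y → Agree n (Φ X) (Φ Y))
  (hΦ' : ∀ n X Y, Agree (n + c) X Y → Agree n (Φ.symm X) (Φ.symm Y))
  (hT : ∀ A B : ℕ → Bool, TuringReducible (chi A) (chi B) ↔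
    TuringReducible (chi (Φ A)) (chi (Φ B)))

include hΦ in
theorem lip_ext_of_agree {σ : List Bool} {P A : ℕ → Bool} (hP : Φ P = pad σ)
    (h : Agree (σ.length + c) A P) : Ext σ (Φ A) := by
  intro i hi
  have h1 := hΦ σ.length A P h i hi
  rw [h1, hP]
  rfl

include hΦ' in
theorem lip_base_agree (P : ℕ → Bool) (N : ℕ) (τ' : List Bool) :
    Agree N (Φ.symm (pad (pre (Φ P) (N + c) ++ τ'))) P := by
  have h1 : Agree (N + c) (pad (pre (Φ P) (N + c) ++ τ')) (Φ P) := by
    intro i hi
    unfold pad
    rw [List.getD_append _ _ _ _ (by rw [length_pre]; exact hi)]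
    exact (ext_pre (Φ P) (N + c) i (by rw [length_pre]; exact hi)).symm
  have h2 := hΦ' N _ _ h1
  rw [Equiv.symm_apply_apply] at h2
  exact h2

include hΦ hΦ' hT in
/-- Below some level `l₁` and base point `P`, any two finite strings of one length that agree
with `P` up to `l₁` are linked by a computable map on the finite parts of the images. -/
theorem lip_cone : ∃ (l₁ : ℕ) (P : ℕ → Bool),
    ∀ b b' : List Bool, b.length = b'.length → l₁ ≤ b.length →
      Agree l₁ (pad b) P → Agree l₁ (pad b') P →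
      ∃ cf : List Bool → List Bool, Computable cf ∧ ∀ (Y : ℕ → Bool) (N : ℕ), b.length ≤ N →
        pre (Φ (app b' Y)) (N - 4 * c) = cf (pre (Φ (app b Y)) N) := by
  obtain ⟨β, γ, Mfin, hlen, hM, hMspec⟩ := lip_step_M Φ c hΦ hΦ' hT
  obtain ⟨A₀, hA₀⟩ : ∃ A₀, Φ A₀ = pad β := ⟨Φ.symm (pad β), Φ.apply_symm_apply _⟩
  obtain ⟨D₀, hD₀c, hD₀⟩ : ∃ D₀, Computable D₀ ∧ Φ D₀ = pad γ :=
    ⟨Φ.symm (pad γ), iso_pt_computable Φ.symm (iso_symm_hT Φ hT) (iso_computable_pad γ),
      Φ.apply_symm_apply _⟩
  -- the translation back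
  obtain ⟨η, hη⟩ : ∃ η, η = pre (Φ (xr A₀ D₀)) (β.length + c + c) := ⟨_, rfl⟩
  have hηl : η.length = β.length + c + c := by rw [hη, length_pre]
  obtain ⟨τV', Vfin, hV, hVspec⟩ := lip_step_V Φ c hΦ hΦ' hT D₀ hD₀c η
  obtain ⟨E₁, hE₁, hE₁a⟩ : ∃ E₁, Φ E₁ = pad (η ++ τV') ∧
      Agree (β.length + c) E₁ (xr A₀ D₀) := by
    refine ⟨_, Φ.apply_symm_apply _, ?_⟩
    rw [hη]
    exact lip_base_agree Φ c hΦ' (xr A₀ D₀) (β.length + c) τV'
  obtain ⟨l₁, hl₁⟩ : ∃ l₁, l₁ = (η ++ τV').length + 2 * c := ⟨_, rfl⟩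
  have hβl : β.length + c ≤ l₁ := by
    rw [hl₁, List.length_append, hηl]
    omega
  have hτl : (η ++ τV').length + c ≤ l₁ := by
    rw [hl₁]
    omega
  -- the base point of the good cone
  have hA₁a : Agree (β.length + c) (xr E₁ D₀) A₀ := by
    have h := iso_agree_xr hE₁a (Agree.refl (β.length + c) D₀)
    rw [iso_xr_xr] at h
    exact h
  -- all nodes of one level in the cone are equivalent
  have hP4 : ∀ A A' : ℕ → Bool, Agree l₁ A (xr E₁ D₀) → Agree l₁ A' (xr E₁ D₀) → ∀ N, l₁ ≤ N →
      pre (Φ A') (N - 4 * c) = Vfin (Mfin (pre (Φ A) N, pre (Φ (xr (xr A A') D₀)) N)) := by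
    intro A A' hA hA' N hN
    have hβ : Ext β (Φ A) := lip_ext_of_agree Φ c hΦ hA₀ ((hA.mono hβl).trans hA₁a)
    have hγ : Ext γ (Φ (xr (xr A A') D₀)) := by
      refine lip_ext_of_agree Φ c hΦ hD₀ ?_
      intro i hi
      have hi' : i < l₁ := lt_of_lt_of_le (hlen ▸ hi) hβl
      simp [xr, hA i hi', hA' i hi']
    have hE : xr A (xr (xr A A') D₀) = xr A' D₀ := by
      funext i
      simp only [xr]
      cases A i <;> cases A' i <;> cases D₀ i <;> rfl
    have hEe : Ext (η ++ τV') (Φ (xr A' D₀)) := by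
      refine lip_ext_of_agree Φ c hΦ hE₁ ?_
      have h := iso_agree_xr hA' (Agree.refl l₁ D₀)
      rw [iso_xr_xr] at h
      exact h.mono hτl
    have h1 := hMspec A (xr (xr A A') D₀) N hβ hγ (by omega)
    have h2 := hVspec (xr A' D₀) (N - 2 * c) hEe (by omega)
    rw [iso_xr_xr] at h2
    have e : N - 4 * c = N - 2 * c - 2 * c := by omega
    rw [e, h2, ← hE, h1]
  have hRel : ∀ b b' : List Bool, b.length = b'.length → l₁ ≤ b.length →
      Agree l₁ (pad b) (xr E₁ D₀) → Agree l₁ (pad b') (xr E₁ D₀) →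
      ∃ cf : List Bool → List Bool, Computable cf ∧ ∀ (Y : ℕ → Bool) (N : ℕ), b.length ≤ N →
        pre (Φ (app b' Y)) (N - 4 * c) = cf (pre (Φ (app b Y)) N) := by
    intro b b' hbb hlb hb hb'
    have hR : Computable (Φ (xr (xr (pad b) (pad b')) D₀)) :=
      iso_pt_computable Φ hT (iso_computable_xr
        (iso_computable_xr (iso_computable_pad b) (iso_computable_pad b')) hD₀c)
    refine ⟨fun t => Vfin (Mfin (t, pre (Φ (xr (xr (pad b) (pad b')) D₀)) t.length)),
      hV.comp (hM.comp (Computable.pair Computable.id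
        ((iso_computable_pre hR).comp Computable.list_length))), ?_⟩
    intro Y N hN
    have hA : Agree l₁ (app b Y) (xr E₁ D₀) := ((iso_agree_app b Y).mono hlb).trans hb
    have hA' : Agree l₁ (app b' Y) (xr E₁ D₀) :=
      ((iso_agree_app b' Y).mono (hbb ▸ hlb)).trans hb'
    have hD : xr (xr (app b Y) (app b' Y)) D₀ = xr (xr (pad b) (pad b')) D₀ := by
      funext i
      simp only [xr, app, pad]
      by_cases hi : i < b.length
      · rw [if_pos hi, if_pos (hbb ▸ hi)]
      · rw [if_neg hi, if_neg (hbb ▸ hi), List.getD_eq_default _ _ (Nat.le_of_not_lt hi),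
          List.getD_eq_default _ _ (Nat.le_of_not_lt (hbb ▸ hi)), hbb]
        simp
    have h := hP4 (app b Y) (app b' Y) hA hA' N (le_trans hlb hN)
    rw [hD] at h
    show _ = Vfin (Mfin (_, pre _ (pre (Φ (app b Y)) N).length))
    rw [length_pre, ← h]
  exact ⟨l₁, xr E₁ D₀, hRel⟩

include hΦ hΦ' hT in
/-- Some finite string `a` such that the two maps `a Y ↦ a x Y` are conjugated to computable
maps on the finite parts of the images, with a bounded loss. -/
theorem lip_node : ∃ (a : List Bool) (c₀ c₁ : List Bool → List Bool),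
    Computable c₀ ∧ Computable c₁ ∧
    (∀ (Y : ℕ → Bool) (N : ℕ), a.length + 1 + 2 * c ≤ N →
      pre (Φ (app (a ++ [false]) Y)) (N - 6 * c) = c₀ (pre (Φ (app a Y)) N)) ∧
    (∀ (Y : ℕ → Bool) (N : ℕ), a.length + 1 + 2 * c ≤ N →
      pre (Φ (app (a ++ [true]) Y)) (N - 6 * c) = c₁ (pre (Φ (app a Y)) N)) := by
  obtain ⟨l₁, P, hRel⟩ := lip_cone Φ c hΦ hΦ' hT
  -- the insertion
  obtain ⟨η, hη⟩ : ∃ η, η = pre (Φ P) (l₁ + c) := ⟨_, rfl⟩
  have hηl : η.length = l₁ + c := by rw [hη, length_pre]
  obtain ⟨τW', Wfin, hW, hWspec⟩ := lip_step_W Φ c hΦ hΦ' hT l₁ η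
  obtain ⟨A₂, hA₂, hA₂a⟩ : ∃ A₂, Φ A₂ = pad (η ++ τW') ∧ Agree l₁ A₂ P := by
    refine ⟨_, Φ.apply_symm_apply _, ?_⟩
    rw [hη]
    exact lip_base_agree Φ c hΦ' P l₁ τW'
  obtain ⟨n₂, hn₂⟩ : ∃ n₂, n₂ = (η ++ τW').length + c := ⟨_, rfl⟩
  have hln : l₁ + c ≤ n₂ := by
    rw [hn₂, List.length_append, hηl]
    omega
  obtain ⟨a, ha⟩ : ∃ a, a = pre A₂ n₂ := ⟨_, rfl⟩
  have hal : a.length = n₂ := by rw [ha, length_pre]
  have haA : Agree n₂ (pad a) A₂ := by rw [ha]; exact iso_agree_pad_pre A₂ n₂
  obtain ⟨a', ha'⟩ : ∃ a', a' = pre (ins l₁ (pad a)) (n₂ + 1) := ⟨_, rfl⟩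
  have ha'l : a'.length = n₂ + 1 := by rw [ha', length_pre]
  have ha'get : ∀ i, i < n₂ + 1 → a'.getD i false = ins l₁ (pad a) i := by
    intro i hi
    rw [ha']
    exact (ext_pre (ins l₁ (pad a)) (n₂ + 1) i (by rw [length_pre]; exact hi)).symm
  have hins : ∀ Y : ℕ → Bool, ins l₁ (app a Y) = app a' Y := by
    intro Y
    funext i
    by_cases h1 : i < n₂ + 1
    · have e2 : app a' Y i = ins l₁ (pad a) i := by
        unfold app
        rw [if_pos (show i < a'.length by rw [ha'l]; exact h1)]
        exact ha'get i h1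
      rw [e2]
      unfold ins
      by_cases h2 : i < l₁
      · rw [if_pos h2, if_pos h2]
        unfold app pad
        rw [if_pos (show i < a.length by rw [hal]; omega)]
      · rw [if_neg h2, if_neg h2]
        by_cases h3 : i = l₁
        · rw [if_pos h3, if_pos h3]
        · rw [if_neg h3, if_neg h3]
          unfold app pad
          rw [if_pos (show i - 1 < a.length by rw [hal]; omega)]
    · have e2 : app a' Y i = Y (i - (n₂ + 1)) := by
        unfold app
        rw [if_neg (show ¬ i < a'.length by rw [ha'l]; exact h1), ha'l]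
      rw [e2]
      unfold ins
      rw [if_neg (show ¬ i < l₁ by omega), if_neg (show ¬ i = l₁ by omega)]
      unfold app
      rw [if_neg (show ¬ i - 1 < a.length by rw [hal]; omega), hal]
      congr 1
      omega
  have hP5 : ∀ (Y : ℕ → Bool) (N : ℕ), n₂ ≤ N →
      pre (Φ (app a' Y)) (N - 2 * c) = Wfin (pre (Φ (app a Y)) N) := by
    intro Y N hN
    have hExt : Ext (η ++ τW') (Φ (app a Y)) := by
      refine lip_ext_of_agree Φ c hΦ hA₂ ?_
      rw [← hn₂]
      have h := iso_agree_app a Y
      rw [hal] at h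
      exact h.trans haA
    have h := hWspec (app a Y) N hExt (by omega) (by omega)
    rw [hins] at h
    exact h
  have hstep : ∀ x : Bool, ∃ cf : List Bool → List Bool, Computable cf ∧
      ∀ (Y : ℕ → Bool) (N : ℕ), n₂ + 1 + 2 * c ≤ N →
        pre (Φ (app (a ++ [x]) Y)) (N - 6 * c) = cf (pre (Φ (app a Y)) N) := by
    intro x
    have hb : Agree l₁ (pad a') P := by
      intro i hi
      have h1 : pad a' i = ins l₁ (pad a) i := ha'get i (by omega)
      rw [h1]
      simp only [ins]
      rw [if_pos hi, haA i (by omega)]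
      exact hA₂a i hi
    have hb' : Agree l₁ (pad (a ++ [x])) P := by
      intro i hi
      have h1 : pad (a ++ [x]) i = pad a i := by
        unfold pad
        rw [List.getD_append _ _ _ _ (by omega)]
      rw [h1, haA i (by omega)]
      exact hA₂a i hi
    obtain ⟨cf, hcf, hcs⟩ := hRel a' (a ++ [x]) (by rw [ha'l, List.length_append, hal]; rfl)
      (by rw [ha'l]; omega) hb hb'
    refine ⟨fun t => cf (Wfin t), hcf.comp hW, fun Y N hN => ?_⟩
    show pre (Φ (app (a ++ [x]) Y)) (N - 6 * c) = cf (Wfin (pre (Φ (app a Y)) N))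
    have h := hcs Y (N - 2 * c) (by rw [ha'l]; omega)
    have e : N - 6 * c = N - 2 * c - 4 * c := by omega
    rw [← hP5 Y N (by omega), e]
    exact h
  obtain ⟨c₀, hc₀, hs₀⟩ := hstep false
  obtain ⟨c₁, hc₁, hs₁⟩ := hstep true
  refine ⟨a, c₀, c₁, hc₀, hc₁, ?_, ?_⟩
  · intro Y N hN
    rw [hal] at hN
    exact hs₀ Y N hN
  · intro Y N hN
    rw [hal] at hN
    exact hs₁ Y N hN

include hΦ hΦ' hT in
/-- A bi-Lipschitz bijection that preserves Turing reducibility in both directions is
degree-decreasing. -/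
theorem lip_decreasing (X : ℕ → Bool) : TuringReducible (chi (Φ X)) (chi X) := by
  obtain ⟨a, c₀, c₁, hc₀, hc₁, hs₀, hs₁⟩ := lip_node Φ c hΦ hΦ' hT
  have hpad : app a (fun _ => false) = pad a := by
    funext i
    unfold app pad
    by_cases h3 : i < a.length
    · rw [if_pos h3]
    · rw [if_neg h3, List.getD_eq_default _ _ (Nat.le_of_not_lt h3)]
  have hred : TuringReducible (chi (Φ (app a X))) (chi X) := by
    refine lip_fold (fun Y => Φ (app a Y)) c (6 * c) (a.length + 1 + 2 * c) c₀ c₁ hc₀ hc₁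
      ?_ ?_ ?_ ?_ X
    · intro N Y Y' h
      apply hΦ
      intro i hi
      unfold app
      by_cases h3 : i < a.length
      · rw [if_pos h3, if_pos h3]
      · rw [if_neg h3, if_neg h3]
        exact h _ (by omega)
    · show Computable (Φ (app a (fun _ => false)))
      rw [hpad]
      exact iso_pt_computable Φ hT (iso_computable_pad a)
    · intro Y N hN
      have h := hs₀ Y N hN
      rw [← iso_app_nil Y, ← iso_app_cons] at h
      rw [iso_app_nil] at h
      exact h
    · intro Y N hN
      have h := hs₁ Y N hN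
      rw [← iso_app_nil Y, ← iso_app_cons] at h
      rw [iso_app_nil] at h
      exact h
  exact ((hT _ _).mp (iso_le_app a X)).trans hred

end

/-- Main theorem: a bijection of Cantor space such that it and its inverse lose at most `c`
values of agreement of initial segments, and which preserves Turing reducibility in both
directions, maps every set to a Turing equivalent set. -/
theorem lip_main (Φ : (ℕ → Bool) ≃ (ℕ → Bool)) (c : ℕ)
    (hlip : ∀ (n : ℕ) (X Y : ℕ → Bool),
      (∀ i, i < n + c → X i = Y i) → ∀ i, i < n → Φ X i = Φ Y i)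
    (hlip' : ∀ (n : ℕ) (X Y : ℕ → Bool),
      (∀ i, i < n + c → Φ X i = Φ Y i) → ∀ i, i < n → X i = Y i)
    (hT : ∀ A B : ℕ → Bool, TuringReducible (chi A) (chi B) ↔
      TuringReducible (chi (Φ A)) (chi (Φ B))) :
    ∀ A : ℕ → Bool, TuringEquivalent (chi (Φ A)) (chi A) := by
  have hΦ : ∀ n X Y, Agree (n + c) X Y → Agree n (Φ X) (Φ Y) := fun n X Y h => hlip n X Y h
  have hΦ' : ∀ n X Y, Agree (n + c) X Y → Agree n (Φ.symm X) (Φ.symm Y) := fun n X Y h =>
    hlip' n (Φ.symm X) (Φ.symm Y) (by
      rw [Equiv.apply_symm_apply, Equiv.apply_symm_apply]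
      exact h)
  intro A
  refine ⟨lip_decreasing Φ c hΦ hΦ' hT A, ?_⟩
  have h := lip_decreasing Φ.symm c hΦ' hΦ (iso_symm_hT Φ hT) (Φ A)
  rw [Equiv.symm_apply_apply] at h
  exact h

end Vale.Agent.H88
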