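import Vale.Agent.H88.Iso.Main

/-!
# Bi-Lipschitz bijections of Cantor space inducing a degree automorphism: uniformisations

`Φ` is a bijection of Cantor space such that `Φ` and its inverse lose at most `c` values of
agreement, and `Φ` preserves Turing reducibility in both directions.  The transported group
law, the conjugate of a computable translation and the conjugate of the insertion of a value
are given by computable functions on finite strings below suitable finite strings.
-/

namespace Vale.Agent.H88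

section

variable (Φ : (ℕ → Bool) ≃ (ℕ → Bool)) (c : ℕ)
  (hΦ : ∀ n X Y, Agree (n + c) X Y → Agree n (Φ X) (Φ Y))
  (hΦ' : ∀ n X Y, Agree (n + c) X Y → Agree n (Φ.symm X) (Φ.symm Y))
  (hT : ∀ A B : ℕ → Bool, TuringReducible (chi A) (chi B) ↔
    TuringReducible (chi (Φ A)) (chi (Φ B)))

include hΦ hΦ' hT in
theorem lip_step_M : ∃ (β γ : List Bool) (Mfin : List Bool × List Bool → List Bool),
    β.length = γ.length ∧ Computable Mfin ∧
    ∀ (A D : ℕ → Bool) (N : ℕ), Ext β (Φ A) → Ext γ (Φ D) → β.length ≤ N →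
      pre (Φ (xr A D)) (N - 2 * c) = Mfin (pre (Φ A) N, pre (Φ D) N) := by
  obtain ⟨τ, Ffin, hF, hspec⟩ := iso_ul_list
    (fun J => Φ (xr (Φ.symm (fun n => J (2 * n))) (Φ.symm (fun n => J (2 * n + 1)))))
    (fun n => 2 * (n + 1 + 2 * c))
    ((Primrec.nat_mul.comp (Primrec.const 2) (Primrec.nat_add.comp Primrec.succ
      (Primrec.const (2 * c)))).to_comp)
    (fun n J J' hJ => hΦ (n + 1) _ _
      (iso_agree_xr (hΦ' (n + 1 + c) _ _ (fun i hi => hJ (2 * i) (by omega)))
        (hΦ' (n + 1 + c) _ _ (fun i hi => hJ (2 * i + 1) (by omega)))) n (Nat.lt_succ_self n))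
    (fun J => by
      have h := iso_M_le Φ hT (fun n => J (2 * n)) (fun n => J (2 * n + 1))
      have hj : join (fun n => J (2 * n)) (fun n => J (2 * n + 1)) = J := by
        funext n
        unfold join
        split_ifs with hn
        · show J (2 * (n / 2)) = J n
          rw [show 2 * (n / 2) = n by omega]
        · show J (2 * (n / 2) + 1) = J n
          rw [show 2 * (n / 2) + 1 = n by omega]
      rw [hj] at h
      exact h)
    [] (fun N => N / 2 - 2 * c)
    ((Primrec.nat_sub.comp (Primrec.nat_div.comp Primrec.id (Primrec.const 2))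
      (Primrec.const (2 * c))).to_comp)
  rw [List.nil_append] at hspec
  refine ⟨pre (fun n => pad τ (2 * n)) τ.length, pre (fun n => pad τ (2 * n + 1)) τ.length,
    fun p => Ffin (genjoinZeta p.1 p.2), by rw [length_pre, length_pre],
    hF.comp genjoin_primrec_zeta.to_comp, ?_⟩
  intro A D N hA hD hN
  rw [length_pre] at hN
  have hext : Ext τ (join (Φ A) (Φ D)) := by
    intro i hi
    have h2 : i / 2 < τ.length := by omega
    unfold join
    split_ifs with hpar
    · rw [hA (i / 2) (by rw [length_pre]; exact h2),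
        ← ext_pre (fun n => pad τ (2 * n)) τ.length (i / 2) (by rw [length_pre]; exact h2)]
      show τ.getD (2 * (i / 2)) false = τ.getD i false
      congr 1; omega
    · rw [hD (i / 2) (by rw [length_pre]; exact h2),
        ← ext_pre (fun n => pad τ (2 * n + 1)) τ.length (i / 2) (by rw [length_pre]; exact h2)]
      show τ.getD (2 * (i / 2) + 1) false = τ.getD i false
      congr 1; omega
  have h := hspec (2 * N) (join (Φ A) (Φ D)) hext (by omega) (fun n hn => by omega)
  have e1 : 2 * N / 2 = N := by omega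
  rw [e1, ← genjoin_zeta_pre] at h
  show pre (Φ (xr A D)) (N - 2 * c) = Ffin (genjoinZeta (pre (Φ A) N) (pre (Φ D) N))
  rw [← h]
  congr 2
  have ea : (fun n => join (Φ A) (Φ D) (2 * n)) = Φ A := funext fun n => join_even _ _ n
  have ed : (fun n => join (Φ A) (Φ D) (2 * n + 1)) = Φ D := funext fun n => join_odd _ _ n
  rw [ea, ed, Equiv.symm_apply_apply, Equiv.symm_apply_apply]

include hΦ hΦ' hT in
theorem lip_step_V (D₀ : ℕ → Bool) (hD₀ : Computable D₀) (η : List Bool) :
    ∃ (τ' : List Bool) (Vfin : List Bool → List Bool), Computable Vfin ∧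
    ∀ (E : ℕ → Bool) (N : ℕ), Ext (η ++ τ') (Φ E) → (η ++ τ').length ≤ N →
      pre (Φ (xr E D₀)) (N - 2 * c) = Vfin (pre (Φ E) N) := by
  obtain ⟨τ', Vfin, hV, hspec⟩ := iso_ul_list
    (fun B => Φ (xr (Φ.symm B) D₀)) (fun n => n + 1 + 2 * c)
    ((Primrec.nat_add.comp Primrec.succ (Primrec.const (2 * c))).to_comp)
    (fun n B B' hB => hΦ (n + 1) _ _
      (iso_agree_xr (hΦ' (n + 1 + c) _ _ (hB.mono (by omega))) (Agree.refl _ _)) n
        (Nat.lt_succ_self n))
    (fun B => by
      have h := (hT _ _).mp (turingReducible_xor hD₀ (Φ.symm B))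
      rw [Equiv.apply_symm_apply] at h
      exact h)
    η (fun N => N - 2 * c)
    ((Primrec.nat_sub.comp Primrec.id (Primrec.const (2 * c))).to_comp)
  refine ⟨τ', Vfin, hV, fun E N hE hN => ?_⟩
  have h := hspec N (Φ E) hE hN (fun n hn => by omega)
  rw [← h, Equiv.symm_apply_apply]

include hΦ hΦ' hT in
theorem lip_step_W (l : ℕ) (η : List Bool) :
    ∃ (τ' : List Bool) (Wfin : List Bool → List Bool), Computable Wfin ∧
    ∀ (A : ℕ → Bool) (N : ℕ), Ext (η ++ τ') (Φ A) → (η ++ τ').length ≤ N → l + c ≤ N →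
      pre (Φ (ins l A)) (N - 2 * c) = Wfin (pre (Φ A) N) := by
  obtain ⟨τ', Wfin, hW, hspec⟩ := iso_ul_list
    (fun B => Φ (ins l (Φ.symm B))) (fun n => max (n + c) l + c)
    ((Primrec.nat_add.comp (Primrec.nat_max.comp (Primrec.nat_add.comp Primrec.id
      (Primrec.const c)) (Primrec.const l)) (Primrec.const c)).to_comp)
    (fun n B B' hB => hΦ (n + 1) _ _
      ((iso_agree_ins (hΦ' (max (n + c) l) _ _ hB)).mono (by
        have := le_max_left (n + c) l
        omega)) n (Nat.lt_succ_self n))
    (fun B => by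
      have h := (hT _ _).mp (iso_ins_le l (Φ.symm B))
      rw [Equiv.apply_symm_apply] at h
      exact h)
    η (fun N => N - 2 * c)
    ((Primrec.nat_sub.comp Primrec.id (Primrec.const (2 * c))).to_comp)
  refine ⟨τ', Wfin, hW, fun A N hA hN hl => ?_⟩
  have h := hspec N (Φ A) hA hN (fun n hn => by
    have h1 : n + c ≤ N := by omega
    have h2 : max (n + c) l ≤ N - c := max_le (by omega) (by omega)
    omega)
  rw [← h, Equiv.symm_apply_apply]

end

end Vale.Agent.H88
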